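import Mathlib
import Vale.Agent.P076.Res2

/-!
# P076: `H^{n/(2(n+1))}` cannot be replaced by any larger space with a radial weight

For every `n ≥ 2` and every nondecreasing weight `w ≥ 0` with
`liminf_{r → ∞} w(r) / r^{n/(n+1)} = 0` there is `f ∈ L²(ℝⁿ)` with `∫ w(|ξ|) |f^(ξ)|² dξ < ∞` for which
the almost everywhere convergence of `e^{it∆} f` fails.  The endpoint Sobolev space is
`w(r) = (1 + r²)^{n/(2(n+1))}`.
-/

namespace Vale.Agent.Results.P076.EndpointSharp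

open MeasureTheory Vale.Agent.P076

theorem result (n : ℕ) (hn : 2 ≤ n) (w : ℝ → ℝ) (hw0 : ∀ r, 0 ≤ w r)
    (hw : MonotoneOn w (Set.Ici 0))
    (hlim : ∀ ε > 0, ∀ M : ℝ, ∃ r ≥ M, w r ≤ ε * r ^ ((n : ℝ) / ((n : ℝ) + 1))) :
    ∃ f : L2 n, Integrable (fun ξ : V n => w ‖ξ‖ * ‖hat f ξ‖ ^ 2) ∧
      ¬ ∀ᵐ x : V n, HasLimit f x :=
  res2 n hn w hw0 hw hlim

end Vale.Agent.Results.P076.EndpointSharp
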